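import Vale.Agent.P331.AFinal

/-!
One sample per element, every finite matroid, an absolute constant ratio against the almighty
adversary (the order is an arbitrary function of the samples, the values and the seed).
-/

namespace Vale.Agent.Results.P331.Almighty

open MeasureTheory Vale.Agent.P331
open scoped NNReal ENNReal

theorem result : ∃ c : ℝ≥0, 0 < c ∧
    ∀ (E : Type) [Fintype E] [DecidableEq E] (M : Matroid E), M.E = Set.univ →
      ∃ (Ω : Type) (_ : MeasurableSpace Ω) (ρ : Measure Ω) (_ : IsProbabilityMeasure ρ)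
        (A : Rule E Ω), IsOnlineRule M A ∧
        ∀ (D : E → Measure ℝ≥0) [∀ e, IsProbabilityMeasure (D e)]
          (ord : (E → ℝ≥0) → (E → ℝ≥0) → Ω → List E), (∀ S V R, IsOrder (ord S V R)) →
          (c : ℝ≥0∞) * ∫⁻ v, (opt M v : ℝ≥0∞) ∂(Measure.pi D) ≤
            ∫⁻ p, ((∑ e ∈ accepted A p.1.1 p.2 (ord p.1.1 p.1.2 p.2) p.1.2, p.1.2 e : ℝ≥0) : ℝ≥0∞)
              ∂(((Measure.pi D).prod (Measure.pi D)).prod ρ) := by
  refine ⟨1 / 2 ^ 78, by positivity, fun E _ _ M hM => ?_⟩
  exact ⟨Seed E, inferInstance, rho E, isProbabilityMeasure_rho, arule M, isOnlineRule_arule M,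
    fun D _ ord h => almighty_value M hM D ord h⟩

end Vale.Agent.Results.P331.Almighty
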