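import Vale.Agent.P331.Main

/-!
One sample per element, every finite matroid, ratio one half, against every adversary whose
order depends only on the unordered pairs of sample and value (in particular every fixed order).
-/

namespace Vale.Agent.Results.P331.PairOrder

open MeasureTheory Vale.Agent.P331
open scoped NNReal ENNReal

theorem result (E : Type) [Fintype E] [DecidableEq E] (M : Matroid E) (hM : M.E = Set.univ) :
    ∃ (Ω : Type) (_ : MeasurableSpace Ω) (ρ : Measure Ω) (_ : IsProbabilityMeasure ρ)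
      (A : Rule E Ω), IsOnlineRule M A ∧
      ∀ (D : E → Measure ℝ≥0) [∀ e, IsProbabilityMeasure (D e)]
        (ord : (E → ℝ≥0) → (E → ℝ≥0) → List E), IsPairAdversary ord →
        (1 / 2 : ℝ≥0∞) * ∫⁻ v, (opt M v : ℝ≥0∞) ∂(Measure.pi D) ≤
          ∫⁻ p, ((∑ e ∈ accepted A p.1.1 p.2 (ord p.1.1 p.1.2) p.1.2, p.1.2 e : ℝ≥0) : ℝ≥0∞)
            ∂(((Measure.pi D).prod (Measure.pi D)).prod ρ) := by
  refine ⟨E → Bool, inferInstance, (Fintype.card (E → Bool) : ℝ≥0∞)⁻¹ • Measure.count, ⟨?_⟩,
    accept M, isOnlineRule_accept M hM, fun D _ ord h => ?_⟩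
  · rw [Measure.smul_apply, Measure.count_univ, smul_eq_mul]
    simp only [ENat.card_eq_coe_fintype_card, ENat.toENNReal_coe]
    exact ENNReal.inv_mul_cancel (by simp) (by simp)
  · rw [← expected_value M hM D ord h, ← mul_assoc, one_div,
      ENNReal.inv_mul_cancel (by simp) (by simp), one_mul]

end Vale.Agent.Results.P331.PairOrder
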